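import Mathlib
import Vale.Agent.P196.Core

open scoped Pointwise

namespace Vale.Agent.P186q

open Vale.Agent.P196

section

variable {G X : Type*} [Group G] [MulAction G X]

/-- Groups without nontrivial finite quotients. -/
class NoFin (G : Type*) [Group G] : Prop where
  triv : ∀ (n : ℕ) (f : G →* Equiv.Perm (Fin n)), f = 1

theorem no_finite_action [NoFin G] {Y : Type*} [Finite Y] (f : G →* Equiv.Perm Y) : f = 1 := by
  obtain ⟨n, ⟨e⟩⟩ := Finite.exists_equiv_fin Y
  have h := NoFin.triv n ((Equiv.permCongrHom e).toMonoidHom.comp f)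
  ext1 g
  have h1 := DFunLike.congr_fun h g
  have h2 : (Equiv.permCongrHom e) (f g) = 1 := h1
  exact (Equiv.permCongrHom e).injective (by rw [h2, MonoidHom.one_apply, map_one])

/-- Isolated thin ends. -/
theorem thin_end [Group.IsFinitelyPresented G] [NoFin G]
    [MulAction.IsPretransitive G X] (S : Set G) (hS : Subgroup.closure S = ⊤) (C : ℕ)
    (F : ℕ → Set X) (hmono : Monotone F) (hU : ⋃ n, F n = Set.univ)
    (hdiff : ∀ n, (F (n + 1) \ F n).Finite)
    (hb : ∀ n, (bdry S (F n)).Finite ∧ (bdry S (F n)).ncard ≤ C) :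
    ∃ n, F n = Set.univ := by
  by_contra hne
  push Not at hne
  obtain ⟨Y, hY, f, hf⟩ := exists_finite_action S hS C F hmono hU hne hdiff hb
  have : Finite ↥Y := hY.to_subtype
  exact hf (no_finite_action f)

theorem countable_of_fp [Group.IsFinitelyPresented G] : Countable G := by
  obtain ⟨n, π, hπ, _⟩ := (inferInstance : Group.IsFinitelyPresented G).out
  have : Countable (FreeGroup (Fin n)) := by
    unfold FreeGroup
    infer_instance
  exact hπ.countable

/-- Every infinite orbit: boundaries of finite exhausting sets tend to infinity.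
Transitive case. -/
theorem exhaust_transitive [Group.IsFinitelyPresented G] [NoFin G]
    [MulAction.IsPretransitive G X] [Infinite X] (S : Set G) (hS : Subgroup.closure S = ⊤)
    (C : ℕ) : ∃ K : Set X, K.Finite ∧ ∀ F : Set X, F.Finite → K ⊆ F → C < (bdry S F).ncard := by
  classical
  by_contra hcon
  push Not at hcon
  have : Countable G := countable_of_fp
  have hX : Nonempty X := inferInstance
  obtain ⟨x0⟩ := hX
  have : Countable X := by
    have hs : Function.Surjective (fun g : G => g • x0) := MulAction.surjective_smul G x0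
    exact hs.countable
  obtain ⟨enum, henum⟩ := exists_surjective_nat X
  choose Φ hΦ1 hΦ2 hΦ3 using hcon
  let T : ℕ → {A : Set X // A.Finite} := fun n =>
    Nat.rec ⟨Φ {x0} (Set.finite_singleton x0), hΦ1 _ _⟩
      (fun n A => ⟨Φ (A.1 ∪ {enum n}) (A.2.union (Set.finite_singleton _)), hΦ1 _ _⟩) n
  have hTs : ∀ n, (T (n + 1)).1 = Φ ((T n).1 ∪ {enum n}) ((T n).2.union (Set.finite_singleton _)) :=
    fun n => rfl
  have hmono : Monotone fun n => (T n).1 := by
    apply monotone_nat_of_le_succ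
    intro n
    rw [hTs]
    exact Set.subset_union_left.trans (hΦ2 _ _)
  have hU : ⋃ n, (T n).1 = Set.univ := by
    apply Set.eq_univ_of_forall
    intro y
    obtain ⟨n, rfl⟩ := henum y
    refine Set.mem_iUnion.2 ⟨n + 1, ?_⟩
    rw [hTs]
    exact hΦ2 _ _ (Or.inr rfl)
  obtain ⟨n, hn⟩ := thin_end S hS C (fun n => (T n).1) hmono hU
    (fun n => (T (n + 1)).2.subset Set.sdiff_subset)
    (fun n => ⟨(T n).2.subset (bdry_subset S _), by
      cases n with
      | zero => exact hΦ3 _ _
      | succ n => exact hΦ3 _ _⟩)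
  have h1 : (Set.univ : Set X).Finite := hn ▸ (T n).2
  exact Set.infinite_univ h1

theorem infinite_orbit [NoFin G] (x : X) (hx : ∃ g : G, g • x ≠ x) :
    (MulAction.orbit G x).Infinite := by
  intro hfin
  have : Finite ↥(MulAction.orbit G x) := hfin.to_subtype
  have h := no_finite_action (MulAction.toPermHom G ↥(MulAction.orbit G x))
  obtain ⟨g, hg⟩ := hx
  apply hg
  have h2 := DFunLike.congr_fun h g
  have h3 := Equiv.ext_iff.1 h2 ⟨x, MulAction.mem_orbit_self x⟩
  exact congrArg Subtype.val h3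

/-- Every infinite orbit: boundaries of finite exhausting sets tend to infinity. -/
theorem exhaust [Group.IsFinitelyPresented G] [NoFin G]
    (S : Set G) (hS : Subgroup.closure S = ⊤) (x : X) (hx : ∃ g : G, g • x ≠ x)
    (C : ℕ) : ∃ K : Set X, K.Finite ∧ K ⊆ MulAction.orbit G x ∧
      ∀ F : Set X, F.Finite → K ⊆ F → F ⊆ MulAction.orbit G x → C < (bdry S F).ncard := by
  classical
  have : Infinite ↥(MulAction.orbit G x) := (infinite_orbit x hx).to_subtype
  obtain ⟨K, hK, h⟩ := exhaust_transitive (X := ↥(MulAction.orbit G x)) S hS C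
  refine ⟨Subtype.val '' K, hK.image _, ?_, fun F hF hKF hFo => ?_⟩
  · rintro _ ⟨y, _, rfl⟩
    exact y.2
  · let F' : Set ↥(MulAction.orbit G x) := Subtype.val ⁻¹' F
    have hF' : F'.Finite := hF.preimage Subtype.val_injective.injOn
    have h1 := h F' hF' (fun y hy => hKF ⟨y, hy, rfl⟩)
    have h2 : Subtype.val '' (bdry S F') = bdry S F := by
      ext y
      constructor
      · rintro ⟨z, ⟨hz, s, hs, hs'⟩, rfl⟩
        exact ⟨hz, s, hs, hs'⟩
      · rintro ⟨hy, s, hs, hs'⟩
        exact ⟨⟨y, hFo hy⟩, ⟨hy, s, hs, hs'⟩, rfl⟩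
    rw [← h2, Set.ncard_image_of_injective _ Subtype.val_injective]
    exact h1

end

section Ball

variable {G X : Type*} [Group G] [MulAction G X]

theorem ball_finite {S : Set G} (hS : S.Finite) (x : X) (n : ℕ) : (ball S x n).Finite := by
  classical
  have hT : (S ∪ S⁻¹).Finite := hS.union hS.inv
  have hl : {l : List G | l.length ≤ n ∧ ∀ s ∈ l, s ∈ S ∪ S⁻¹}.Finite := by
    have := hT.to_subtype
    have h2 : (Set.range fun l : {l : List ↥(S ∪ S⁻¹) // l.length ≤ n} =>
        (l.1.map Subtype.val : List G)).Finite := by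
      have : Finite {l : List ↥(S ∪ S⁻¹) // l.length ≤ n} := List.finite_length_le _ n
      exact Set.finite_range _
    refine h2.subset ?_
    rintro l ⟨hl, hl'⟩
    refine ⟨⟨l.attach.map fun s => ⟨s.1, hl' s.1 s.2⟩, by simpa using hl⟩, ?_⟩
    simp [List.map_map, Function.comp_def]
  refine (hl.image fun l => l.prod • x).subset ?_
  rintro y ⟨l, hl, hl', rfl⟩
  exact ⟨l, ⟨hl, fun s hs => hl' s hs⟩, rfl⟩

theorem ball_mono (S : Set G) (x : X) : Monotone (ball S x) := by
  intro m n hmn y hy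
  obtain ⟨l, hl, hl', rfl⟩ := hy
  exact ⟨l, hl.trans hmn, hl', rfl⟩

theorem ball_subset_orbit (S : Set G) (x : X) (n : ℕ) : ball S x n ⊆ MulAction.orbit G x := by
  rintro y ⟨l, _, _, rfl⟩
  exact ⟨l.prod, rfl⟩

theorem exists_mem_ball {S : Set G} (hS : Subgroup.closure S = ⊤) (x : X) {y : X}
    (hy : y ∈ MulAction.orbit G x) : ∃ n, y ∈ ball S x n := by
  obtain ⟨g, rfl⟩ := hy
  have hg : g ∈ Submonoid.closure (S ∪ S⁻¹) := by
    rw [← Subgroup.closure_toSubmonoid, hS]
    exact Submonoid.mem_top g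
  obtain ⟨l, hl, hl'⟩ := Submonoid.exists_list_of_mem_closure hg
  exact ⟨l.length, l, le_rfl, fun s hs => hl s hs, by rw [hl']⟩

theorem smul_mem_ball {S : Set G} {x : X} {n : ℕ} {y : X} (hy : y ∈ ball S x n) {s : G}
    (hs : s ∈ S ∨ s⁻¹ ∈ S) : s • y ∈ ball S x (n + 1) := by
  obtain ⟨l, hl, hl', rfl⟩ := hy
  refine ⟨s :: l, by simpa using hl, ?_, by rw [List.prod_cons, mul_smul]⟩
  intro t ht
  rcases List.mem_cons.1 ht with rfl | ht
  · exact hs
  · exact hl' t ht

/-- Superlinear growth of every nontrivial orbit. -/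
theorem growth [Group.IsFinitelyPresented G] [NoFin G]
    (S : Set G) (hSf : S.Finite) (hS : Subgroup.closure S = ⊤) (x : X) (hx : ∃ g : G, g • x ≠ x)
    (C : ℕ) : ∃ N : ℕ, ∀ n ≥ N, C * n ≤ (ball S x n).ncard := by
  classical
  obtain ⟨K, hK, hKo, h⟩ := exhaust S hS x hx (2 * C)
  obtain ⟨m, hm⟩ : ∃ m, K ⊆ ball S x m := by
    clear h
    induction K, hK using Set.Finite.induction_on with
    | empty => exact ⟨0, Set.empty_subset _⟩
    | @insert a s _ _ ih =>
      obtain ⟨m, hm⟩ := ih ((Set.subset_insert a s).trans hKo)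
      obtain ⟨k, hk⟩ := exists_mem_ball hS x (hKo (Set.mem_insert a s))
      exact ⟨max m k, Set.insert_subset (ball_mono S x (le_max_right m k) hk)
        (hm.trans (ball_mono S x (le_max_left m k)))⟩
  have hstep : ∀ k, m ≤ k → (ball S x k).ncard + 2 * C ≤ (ball S x (k + 1)).ncard := by
    intro k hk
    have hfin := ball_finite hSf x (k + 1)
    have h1 := h (ball S x (k + 1)) hfin (hm.trans (ball_mono S x (by omega)))
      (ball_subset_orbit S x _)
    have h2 : bdry S (ball S x (k + 1)) ⊆ ball S x (k + 1) \ ball S x k := by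
      rintro y ⟨hy, s, hs, hs'⟩
      refine ⟨hy, fun hyk => ?_⟩
      rcases hs' with hs' | hs'
      · exact hs' (smul_mem_ball hyk (Or.inl hs))
      · exact hs' (smul_mem_ball hyk (Or.inr (by simpa using hs)))
    have h3 := Set.ncard_le_ncard h2 (hfin.subset Set.sdiff_subset)
    have h4 := Set.ncard_sdiff_add_ncard_of_subset (ball_mono S x (Nat.le_succ k)) hfin
    simp only [Nat.succ_eq_add_one] at h4
    omega
  have hlin : ∀ j, 2 * C * j ≤ (ball S x (m + j)).ncard := by
    intro j
    induction j with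
    | zero => simp
    | succ j ih =>
      have := hstep (m + j) (by omega)
      rw [← add_assoc]
      calc 2 * C * (j + 1) = 2 * C * j + 2 * C := by ring
        _ ≤ _ := by omega
  refine ⟨2 * m, fun n hn => ?_⟩
  have h5 := hlin (n - m)
  rw [show m + (n - m) = n by omega] at h5
  refine le_trans ?_ h5
  calc C * n ≤ C * (2 * (n - m)) := Nat.mul_le_mul_left _ (by omega)
    _ = 2 * C * (n - m) := by ring

end Ball

section Piecewise

/-- Words in a finite subset of a virtually cyclic group lie in a set of linear size. -/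
theorem virt_cyclic_words {H : Type*} [Group H] (t : H) (ht : (Subgroup.zpowers t).FiniteIndex)
    (K : Set H) (hK : K.Finite) :
    ∃ (T : Set H) (m : ℕ), T.Finite ∧ ∀ l : List H, (∀ k ∈ l, k ∈ K) →
      ∃ (z : ℤ) (τ : H), τ ∈ T ∧ |z| ≤ m * l.length ∧ l.prod = τ * t ^ z := by
  classical
  -- a finite set of representatives of the left cosets
  obtain ⟨T0, hT0, hrep⟩ : ∃ T0 : Set H, T0.Finite ∧ ∀ h : H, ∃ (z : ℤ) (τ : H), τ ∈ T0 ∧
      h = τ * t ^ z := by
    have hfin : Finite (H ⧸ Subgroup.zpowers t) := Subgroup.finite_quotient_of_finiteIndex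
    refine ⟨Set.range fun q : H ⧸ Subgroup.zpowers t => q.out, Set.finite_range _, fun h => ?_⟩
    have h1 : ((((h : H) : H ⧸ Subgroup.zpowers t).out : H) : H ⧸ Subgroup.zpowers t) =
        ((h : H) : H ⧸ Subgroup.zpowers t) := by
      simp
    rw [QuotientGroup.eq] at h1
    obtain ⟨z, hz⟩ := Subgroup.mem_zpowers_iff.1 h1
    refine ⟨z, ((h : H) : H ⧸ Subgroup.zpowers t).out, Set.mem_range_self _, ?_⟩
    rw [hz]
    group
  choose z τ hτ hzτ using hrep
  -- the cocycle is bounded
  obtain ⟨m, hm⟩ : ∃ m : ℕ, ∀ a ∈ T0 ∪ {1}, ∀ k ∈ K, |z (k * a)| ≤ m := by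
    have hfin : ((T0 ∪ {1}) ×ˢ K).Finite := (hT0.union (Set.finite_singleton 1)).prod hK
    obtain ⟨m, hm⟩ := (hfin.image fun p : H × H => (z (p.2 * p.1)).natAbs).bddAbove
    refine ⟨m, fun a ha k hk => ?_⟩
    have := hm ⟨(a, k), ⟨ha, hk⟩, rfl⟩
    simp only at this
    rw [Int.abs_eq_natAbs]
    exact_mod_cast this
  refine ⟨T0 ∪ {1}, m, hT0.union (Set.finite_singleton 1), fun l => ?_⟩
  induction l with
  | nil =>
    intro _
    exact ⟨0, 1, Or.inr rfl, by simp, by simp⟩
  | cons k l ih =>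
    intro hl
    obtain ⟨z', τ', hτ', hz', h⟩ := ih fun k hk => hl k (List.mem_cons_of_mem _ hk)
    have hk : k ∈ K := hl k List.mem_cons_self
    refine ⟨z (k * τ') + z', τ (k * τ'), Or.inl (hτ _), ?_, ?_⟩
    · have h1 := hm τ' hτ' k hk
      have h2 := abs_add_le (z (k * τ')) z'
      rw [List.length_cons]
      push_cast
      linarith [h1, h2, hz']
    · rw [List.prod_cons, h, ← mul_assoc, zpow_add, ← mul_assoc]
      congr 1
      exact hzτ _

/-- Every action of an infinite finitely presented simple group by piecewise `H`-transformations,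
`H` virtually cyclic, is trivial. -/
theorem piecewise_trivial {G X H : Type*} [Group G] [Group H] [Group.IsFinitelyPresented G]
    [NoFin G] (ρ : G →* Equiv.Perm X) (σ : H →* Equiv.Perm X) (t : H)
    (ht : (Subgroup.zpowers t).FiniteIndex)
    (hρ : ∀ g : G, ∃ K : Set H, K.Finite ∧ ∀ x : X, ∃ h ∈ K, ρ g x = σ h x) : ρ = 1 := by
  classical
  by_contra hne
  obtain ⟨g, x, hgx⟩ : ∃ (g : G) (x : X), ρ g x ≠ x := by
    by_contra hcon
    push Not at hcon
    apply hne
    ext g x
    exact hcon g x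
  letI : MulAction G X := MulAction.compHom X ρ
  have hact : ∀ (g : G) (x : X), g • x = ρ g x := fun _ _ => rfl
  obtain ⟨n, π, hπ, _⟩ := (inferInstance : Group.IsFinitelyPresented G).out
  let S : Set G := Set.range fun i => π (FreeGroup.of i)
  have hSf : S.Finite := Set.finite_range _
  have hS : Subgroup.closure S = ⊤ := by
    have h1 : S = π '' (Set.range FreeGroup.of) := by
      rw [← Set.range_comp]
      rfl
    rw [h1, ← MonoidHom.map_closure, FreeGroup.closure_range_of, ← MonoidHom.range_eq_map,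
      MonoidHom.range_eq_top.2 hπ]
  choose K hKf hK using hρ
  let K' : Set H := (⋃ s ∈ S, K s) ∪ (⋃ s ∈ S, K s⁻¹)
  have hK' : K'.Finite := (hSf.biUnion fun s _ => hKf s).union (hSf.biUnion fun s _ => hKf s⁻¹)
  obtain ⟨T, m, hT, hw⟩ := virt_cyclic_words t ht K' hK'
  -- words
  have hword : ∀ l : List G, (∀ s ∈ l, s ∈ S ∨ s⁻¹ ∈ S) →
      ∃ l' : List H, l'.length = l.length ∧ (∀ k ∈ l', k ∈ K') ∧ l.prod • x = σ l'.prod x := by
    intro l
    induction l with
    | nil => intro _; exact ⟨[], rfl, by simp, by simp⟩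
    | cons s l ih =>
      intro hl
      obtain ⟨l', h1, h2, h3⟩ := ih fun s hs => hl s (List.mem_cons_of_mem _ hs)
      obtain ⟨k, hk, hk'⟩ := hK s (l.prod • x)
      have hkK : k ∈ K' := by
        rcases hl s List.mem_cons_self with h | h
        · exact Or.inl (Set.mem_biUnion h hk)
        · refine Or.inr (Set.mem_biUnion h ?_)
          rwa [inv_inv]
      refine ⟨k :: l', by simp [h1], ?_, ?_⟩
      · intro k' hk'
        rcases List.mem_cons.1 hk' with rfl | hk'
        · exact hkK
        · exact h2 k' hk'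
      · rw [List.prod_cons, mul_smul, hact s, hk', List.prod_cons, map_mul, h3]
        rfl
  have hball : ∀ n : ℕ, (ball S x n).ncard ≤ T.ncard * (2 * (m * n) + 1) := by
    intro n
    have hsub : ball S x n ⊆ Set.image2 (fun (τ : H) (z : ℤ) => σ (τ * t ^ z) x) T
        (Set.Icc (-(m * n : ℤ)) (m * n)) := by
      rintro y ⟨l, hl, hl', rfl⟩
      obtain ⟨l', h1, h2, h3⟩ := hword l hl'
      obtain ⟨z, τ, hτ, hz, hp⟩ := hw l' h2
      refine ⟨τ, hτ, z, ?_, ?_⟩
      · rw [Set.mem_Icc, ← abs_le]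
        refine hz.trans ?_
        rw [h1]
        have : (l.length : ℤ) ≤ n := by exact_mod_cast hl
        exact mul_le_mul_of_nonneg_left this (by positivity)
      · rw [h3, hp]
    have hfin2 : (Set.Icc (-(m * n : ℤ)) (m * n)).Finite := Set.finite_Icc _ _
    refine (Set.ncard_le_ncard hsub (hT.image2 _ hfin2)).trans ?_
    rw [← Set.image_prod]
    refine (Set.ncard_image_le (hT.prod hfin2)).trans ?_
    rw [Set.ncard_prod]
    refine Nat.mul_le_mul_left _ ?_
    rw [← Nat.card_coe_set_eq, Nat.card_eq_fintype_card]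
    simp only [Fintype.card_ofFinset, Int.card_Icc]
    have : ((m * n : ℤ) + 1 - -(m * n : ℤ)) = ((2 * (m * n) + 1 : ℕ) : ℤ) := by
      push_cast
      ring
    rw [this, Int.toNat_natCast]
  obtain ⟨N, hN⟩ := growth S hSf hS x ⟨g, hgx⟩ (T.ncard * (2 * m + 1) + 1)
  have h1 := hN (N + 1) (by omega)
  have h2 := hball (N + 1)
  have h3 : T.ncard * (2 * (m * (N + 1)) + 1) ≤ T.ncard * (2 * m + 1) * (N + 1) := by
    rw [mul_assoc]
    apply Nat.mul_le_mul_left
    nlinarith
  nlinarith

/-- Topological full groups of homeomorphisms. -/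
theorem full_group_trivial {G X : Type*} [Group G] [Group.IsFinitelyPresented G]
    [NoFin G] [TopologicalSpace X] (φ : X ≃ₜ X) (ρ : G →* (X ≃ₜ X))
    (hρ : ∀ g, ρ g ∈ topFullGroup φ) : ρ = 1 := by
  let toPerm : (X ≃ₜ X) →* Equiv.Perm X :=
    { toFun := fun f => f.toEquiv
      map_one' := rfl
      map_mul' := fun _ _ => rfl }
  let σ : Multiplicative ℤ →* Equiv.Perm X := toPerm.comp (zpowersHom (X ≃ₜ X) φ)
  have h := piecewise_trivial (toPerm.comp ρ) σ (Multiplicative.ofAdd 1) (by
    have : Subgroup.zpowers (Multiplicative.ofAdd (1 : ℤ)) = ⊤ := by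
      rw [Subgroup.eq_top_iff']
      intro x
      exact Subgroup.mem_zpowers_iff.2 ⟨Multiplicative.toAdd x, by
        rw [← ofAdd_zsmul]
        simp⟩
    rw [this]
    infer_instance) (by
    intro g
    obtain ⟨k, U, n, _, _, hU, hg⟩ := hρ g
    refine ⟨Set.range fun i => Multiplicative.ofAdd (n i), Set.finite_range _, fun x => ?_⟩
    have hx : x ∈ ⋃ i, U i := hU ▸ Set.mem_univ x
    obtain ⟨i, hi⟩ := Set.mem_iUnion.1 hx
    exact ⟨_, ⟨i, rfl⟩, hg i x hi⟩)
  ext g x
  have h2 := DFunLike.congr_fun h g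
  exact Equiv.ext_iff.1 h2 x

end Piecewise

end Vale.Agent.P186q
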