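import Mathlib
import Vale.Agent.P196c.BType
import Vale.Agent.P186q.Cor

open scoped Pointwise

namespace Vale.Agent.P186q

open Vale.Agent.P196 Vale.Agent.P196.Glue Vale.Agent.P196c

/-- Actions of bounded type of finitely presented groups without finite quotients are trivial. -/
theorem bt_trivial {G X : Type*} [Group G] [Group.IsFinitelyPresented G] [NoFin G] [MulAction G X] (E : ℕ → X → X → Prop) (hE : ∀ n, Equivalence (E n))
    (hmono : ∀ n x y, E n x y → E (n + 1) x y) (hfin : ∀ n x, {y | E n x y}.Finite)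
    (hbd : ∀ g : G, ∃ C : ℕ, ∀ n x, {y | E n x y ∧ ¬ E n y (g • y)}.ncard ≤ C)
    (hsing : ∀ g : G, {x : X | ∀ n, ¬ E n x (g • x)}.Finite) (g : G) (x : X) : g • x = x := by
  classical
  by_contra hne
  obtain ⟨r, π, hπ, _⟩ := (inferInstance : Group.IsFinitelyPresented G).out
  let S : Set G := Set.range fun i => π (FreeGroup.of i)
  have hSf : S.Finite := Set.finite_range _
  have hS : Subgroup.closure S = ⊤ := by
    have h1 : S = π '' (Set.range FreeGroup.of) := by
      rw [← Set.range_comp]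
      rfl
    rw [h1, ← MonoidHom.map_closure, FreeGroup.closure_range_of, ← MonoidHom.range_eq_map,
      MonoidHom.range_eq_top.2 hπ]
  obtain ⟨C, F, hF1, hF2, hF3, hF4⟩ := bt_exhaust S hSf hS E hE hmono hfin hbd hsing x
  obtain ⟨K, hK1, hK2, hK3⟩ := exhaust S hS x ⟨g, hne⟩ C
  have key : ∀ A : Set X, A.Finite → A ⊆ MulAction.orbit G x → ∃ m, A ⊆ F m := by
    intro A hA
    induction A, hA using Set.Finite.induction_on with
    | empty => exact fun _ => ⟨0, Set.empty_subset _⟩
    | @insert a s _ _ ih =>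
      intro hsub
      obtain ⟨m, hm⟩ := ih ((Set.subset_insert a s).trans hsub)
      have ha : a ∈ ⋃ n, F n := hF3 ▸ hsub (Set.mem_insert a s)
      obtain ⟨k, hk⟩ := Set.mem_iUnion.1 ha
      exact ⟨max m k, Set.insert_subset (hF1 (le_max_right m k) hk)
        (hm.trans (hF1 (le_max_left m k)))⟩
  obtain ⟨m, hm⟩ := key K hK1 hK2
  have h1 := hK3 (F m) (hF2 m) hm (hF3 ▸ Set.subset_iUnion F m)
  have h2 := hF4 m
  omega

end Vale.Agent.P186q
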