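import Mathlib
import Vale.Agent.P196c.CarvSimple
import Vale.Agent.P186q.Simple

open scoped Pointwise

namespace Vale.Agent.P186q

open Vale.Agent.P196 Vale.Agent.P196.Glue Vale.Agent.P192 Vale.Agent.P196c

universe u v

theorem carving_simple {G : Type u} [Group G] [Group.IsFinitelyPresented G] [NoFin G] (S : Set G) (hSf : S.Finite) (hS : Subgroup.closure S = ⊤) (C : ℕ) :
    ∃ B : ℕ, ∀ (X : Type v) [MulAction G X] (F : Set X), Carv S C F → ∀ A ⊆ F, Conn S A →
      A.ncard ≤ B := by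
  obtain ⟨ℓ, hℓ⟩ := chain_simple.{u, v} S hSf hS C
  exact ⟨_, fun X _ F hF A hA hconn => carving_conn S C ℓ hℓ X F hF A hA hconn⟩

end Vale.Agent.P186q
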